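import Vale.Agent.P125.P58.Top

set_option linter.unusedSectionVars false
set_option linter.unusedVariables false

/-!
# P125 J99: the polynomial rate with the James norm (2-variation of the partial sums) as output

Board 825 (helper99).  Every lemma is a `def St... : Prop`; a filler proves `theorem st..._NN` in
his own file `J99/<Tag>_NN.lean` (NN = seat number), importing this file.
-/

namespace Vale.Agent.P125.Poly

open scoped BigOperators
open Vale.Agent.P125.Dich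

/-- OWNFUN: what Steps 2-7 really bound (copy `stTwo_77` without its step 1, then `stCore_77`) -/
def StOwnFun : Prop := ∀ (S : Type) [Fintype S] [DecidableEq S] (μ : S → ℝ) (P : Matrix S S ℝ),
  IsChain μ P → ∀ (n : ℕ) (f : S → Fin n → ℝ) (t : ℕ), 1 ≤ t →
    ∑ k, ∑ x, ∑ y, μ x * (P ^ t) x y * (|f y k - f x k| * |F f k y - F f k x|) ≤
      12 * (t : ℝ) ^ (11 / 6 : ℝ) * U μ P f

/-- L2: Markov type 2 of the real line with constant 1 -/
def StL2 : Prop := ∀ (S : Type) [Fintype S] [DecidableEq S] (μ : S → ℝ) (P : Matrix S S ℝ),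
  IsChain μ P → Lib μ P → ∀ (g : S → ℝ) (t : ℕ),
    ∑ x, ∑ y, μ x * (P ^ t) x y * (g y - g x) ^ 2 ≤
      t * ∑ x, ∑ y, μ x * P x y * (g y - g x) ^ 2

/-- V2: the deterministic lemma (board 825) -/
def StV2 : Prop := ∀ (n : ℕ) (v : Fin n → ℝ) (m : ℕ) (c : ℕ → ℕ), Monotone c →
  ∑ q ∈ Finset.range m, (∑ l : Fin n, if c q ≤ l.val ∧ l.val < c (q + 1) then v l else 0) ^ 2 ≤
    8 * ∑ k, |v k| * |∑ i, if i ≤ k then v i else 0| + 2 * ∑ k, v k ^ 2

/-- JAMES: the final statement -/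
def StJames : Prop := ∀ t : ℕ, 1 ≤ t →
    ∀ (n : ℕ) (S : Type) [Fintype S] [DecidableEq S] (μ : S → ℝ) (P : Matrix S S ℝ),
      (∀ i, 0 ≤ μ i) → ∑ i, μ i = 1 → (∀ i j, 0 ≤ P i j) → (∀ i, ∑ j, P i j = 1) →
      (∀ i j, μ i * P i j = μ j * P j i) → ∀ (f : S → Fin n → ℝ) (m : ℕ) (c : S → S → ℕ → ℕ),
        (∀ i j, Monotone (c i j)) →
        ∑ i, ∑ j, μ i * (P ^ t) i j *
            ∑ q ∈ Finset.range m,
              (∑ l : Fin n, if c i j q ≤ l.val ∧ l.val < c i j (q + 1)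
                then f j l - f i l else 0) ^ 2 ≤
          98 * (t : ℝ) ^ (11 / 6 : ℝ) *
            ∑ i, ∑ j, μ i * P i j * (∑ l : Fin n, |f j l - f i l|) ^ 2

end Vale.Agent.P125.Poly
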