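import Vale.Agent.P125.J99.Defs99

set_option linter.unusedSectionVars false
set_option linter.unusedVariables false

namespace Vale.Agent.P125.Poly

open scoped BigOperators
open Vale.Agent.P125.Dich

theorem sum_sq_le_99 {ι : Type} (s : Finset ι) (a : ι → ℝ) :
    ∑ k ∈ s, a k ^ 2 ≤ (∑ k ∈ s, |a k|) ^ 2 := by
  have h : ∀ k ∈ s, a k ^ 2 ≤ |a k| * ∑ j ∈ s, |a j| := by
    intro k hk
    have h1 : |a k| ≤ ∑ j ∈ s, |a j| :=
      Finset.single_le_sum (f := fun j => |a j|) (fun j _ => abs_nonneg _) hk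
    have h2 := mul_le_mul_of_nonneg_left h1 (abs_nonneg (a k))
    have h3 : a k ^ 2 = |a k| * |a k| := by rw [← sq, sq_abs]
    linarith
  calc ∑ k ∈ s, a k ^ 2 ≤ ∑ k ∈ s, |a k| * ∑ j ∈ s, |a j| := Finset.sum_le_sum h
    _ = (∑ k ∈ s, |a k|) ^ 2 := by rw [← Finset.sum_mul, sq]

theorem stJames_99 (h1 : StOwnFun) (h2 : StL2) (h3 : StV2) : StJames := by
  intro t ht n S _ _ μ P c0 c1 c2 c3 c4 f m c hc
  have hC : IsChain μ P := ⟨c0, c1, c2, c3, c4⟩
  have L : Lib μ P := stLib_75 S μ P hC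
  have hF : ∀ (k : Fin n) (x y : S),
      (∑ i, if i ≤ k then (f y i - f x i) else 0) = F f k y - F f k x := by
    intro k x y
    unfold F
    rw [← Finset.sum_sub_distrib]
    refine Finset.sum_congr rfl fun i _ => ?_
    split_ifs <;> simp
  have hw : ∀ x y, 0 ≤ μ x * (P ^ t) x y := fun x y =>
    mul_nonneg (L.mu_nonneg x) (L.pw_nonneg t x y)
  have hpt : ∀ x y : S,
      ∑ q ∈ Finset.range m,
        (∑ l : Fin n, if c x y q ≤ l.val ∧ l.val < c x y (q + 1) then f y l - f x l else 0) ^ 2 ≤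
      8 * ∑ k, |f y k - f x k| * |F f k y - F f k x| + 2 * ∑ k, (f y k - f x k) ^ 2 := by
    intro x y
    have := h3 n (fun l => f y l - f x l) m (c x y) (hc x y)
    simp only [hF] at this
    exact this
  have s1 : ∑ x, ∑ y, μ x * (P ^ t) x y *
      ∑ q ∈ Finset.range m,
        (∑ l : Fin n, if c x y q ≤ l.val ∧ l.val < c x y (q + 1) then f y l - f x l else 0) ^ 2 ≤
      ∑ x, ∑ y, μ x * (P ^ t) x y *
        (8 * ∑ k, |f y k - f x k| * |F f k y - F f k x| + 2 * ∑ k, (f y k - f x k) ^ 2) :=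
    Finset.sum_le_sum fun x _ => Finset.sum_le_sum fun y _ =>
      mul_le_mul_of_nonneg_left (hpt x y) (hw x y)
  have e1 : ∑ x, ∑ y, μ x * (P ^ t) x y *
        (8 * ∑ k, |f y k - f x k| * |F f k y - F f k x| + 2 * ∑ k, (f y k - f x k) ^ 2) =
      8 * ∑ k, ∑ x, ∑ y, μ x * (P ^ t) x y * (|f y k - f x k| * |F f k y - F f k x|)
        + 2 * ∑ k, ∑ x, ∑ y, μ x * (P ^ t) x y * (f y k - f x k) ^ 2 := by
    have a1 : ∑ k, ∑ x, ∑ y, μ x * (P ^ t) x y * (|f y k - f x k| * |F f k y - F f k x|) =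
        ∑ x, ∑ y, μ x * (P ^ t) x y * ∑ k, |f y k - f x k| * |F f k y - F f k x| := by
      rw [Finset.sum_comm]
      refine Finset.sum_congr rfl fun x _ => ?_
      rw [Finset.sum_comm]
      refine Finset.sum_congr rfl fun y _ => ?_
      rw [Finset.mul_sum]
    have a2 : ∑ k, ∑ x, ∑ y, μ x * (P ^ t) x y * (f y k - f x k) ^ 2 =
        ∑ x, ∑ y, μ x * (P ^ t) x y * ∑ k, (f y k - f x k) ^ 2 := by
      rw [Finset.sum_comm]
      refine Finset.sum_congr rfl fun x _ => ?_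
      rw [Finset.sum_comm]
      refine Finset.sum_congr rfl fun y _ => ?_
      rw [Finset.mul_sum]
    rw [a1, a2, Finset.mul_sum, Finset.mul_sum, ← Finset.sum_add_distrib]
    refine Finset.sum_congr rfl fun x _ => ?_
    rw [Finset.mul_sum, Finset.mul_sum, ← Finset.sum_add_distrib]
    refine Finset.sum_congr rfl fun y _ => ?_
    ring
  have b1 := h1 S μ P hC n f t ht
  have b2 : ∑ k, ∑ x, ∑ y, μ x * (P ^ t) x y * (f y k - f x k) ^ 2 ≤ t * U μ P f := by
    have d1 : ∀ k ∈ (Finset.univ : Finset (Fin n)),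
        ∑ x, ∑ y, μ x * (P ^ t) x y * (f y k - f x k) ^ 2 ≤
        t * ∑ x, ∑ y, μ x * P x y * (f y k - f x k) ^ 2 := fun k _ =>
      h2 S μ P hC L (fun x => f x k) t
    refine (Finset.sum_le_sum d1).trans ?_
    rw [← Finset.mul_sum]
    refine mul_le_mul_of_nonneg_left ?_ (Nat.cast_nonneg t)
    unfold U
    rw [Finset.sum_comm]
    refine Finset.sum_le_sum fun x _ => ?_
    rw [Finset.sum_comm]
    refine Finset.sum_le_sum fun y _ => ?_
    rw [← Finset.mul_sum]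
    refine mul_le_mul_of_nonneg_left ?_ (mul_nonneg (c0 x) (c2 x y))
    exact sum_sq_le_99 Finset.univ (fun k => f y k - f x k)
  have hU0 : 0 ≤ U μ P f := by
    unfold U
    exact Finset.sum_nonneg fun a _ => Finset.sum_nonneg fun b _ =>
      mul_nonneg (mul_nonneg (c0 a) (c2 a b)) (sq_nonneg _)
  have ht1 : (1 : ℝ) ≤ t := by exact_mod_cast ht
  have hpow : (t : ℝ) ≤ (t : ℝ) ^ (11 / 6 : ℝ) := by
    have := Real.rpow_le_rpow_of_exponent_le ht1 (show (1 : ℝ) ≤ 11 / 6 by norm_num)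
    rwa [Real.rpow_one] at this
  have b3 : (t : ℝ) * U μ P f ≤ (t : ℝ) ^ (11 / 6 : ℝ) * U μ P f :=
    mul_le_mul_of_nonneg_right hpow hU0
  have hUe : U μ P f = ∑ i, ∑ j, μ i * P i j * (∑ l : Fin n, |f j l - f i l|) ^ 2 := rfl
  rw [← hUe]
  rw [e1] at s1
  linarith

end Vale.Agent.P125.Poly
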