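import Vale.Agent.P125.J99.Defs99

set_option linter.unusedSectionVars false
set_option linter.unusedVariables false

namespace Vale.Agent.P125.Poly

open scoped BigOperators
open Vale.Agent.P125.Dich

/-- Markov type 2 of the real line with constant 1 (helper21, race copy) -/
theorem stL2_21 : StL2 := by
  intro S _ _ μ P hC L g t
  set C : ℕ → ℝ := fun i => av μ (fun x => g x * op P i g x) with hCdef
  have hip : ∀ a b, av μ (fun x => op P a g x * op P b g x) = C (a + b) := by
    intro a b
    have h := L.av_adj a g (op P b g)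
    rw [L.op_op] at h
    exact h.symm
  have hexp : ∀ a b, av μ (fun x => (op P a g x - op P b g x) ^ 2) =
      C (a + a) - 2 * C (a + b) + C (b + b) := by
    intro a b
    rw [← hip, ← hip, ← hip]
    unfold av
    rw [Finset.mul_sum, ← Finset.sum_sub_distrib, ← Finset.sum_add_distrib]
    refine Finset.sum_congr rfl fun x _ => ?_
    ring
  have hnn : ∀ a b, 0 ≤ C (a + a) - 2 * C (a + b) + C (b + b) := by
    intro a b
    rw [← hexp]
    unfold av
    exact Finset.sum_nonneg fun x _ => mul_nonneg (L.mu_nonneg x) (sq_nonneg _)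
  have hcontr : ∀ a, av μ (fun x => (op P (a + 1) g x - op P (a + 2) g x) ^ 2) ≤
      av μ (fun x => (op P a g x - op P (a + 1) g x) ^ 2) := by
    intro a
    have h1 : ∀ x, (op P (a + 1) g x - op P (a + 2) g x) ^ 2 ≤
        op P 1 (fun y => (op P a g y - op P (a + 1) g y) ^ 2) x := by
      intro x
      have h2 := L.sq_op 1 (fun y => op P a g y - op P (a + 1) g y) x
      rw [L.op_sub, L.op_op, L.op_op] at h2
      have e1 : 1 + a = a + 1 := by ring
      have e2 : 1 + (a + 1) = a + 2 := by ring
      rw [e1, e2] at h2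
      exact h2
    refine (L.av_mono _ _ h1).trans ?_
    rw [L.av_op]
  -- differences
  have hev : ∀ a, C (2 * a + 2) - C (2 * a + 3) ≤ C (2 * a) - C (2 * a + 1) := by
    intro a
    have q1 := hcontr a
    rw [hexp, hexp] at q1
    have q2 := hnn a (a + 2)
    have e1 : a + a = 2 * a := by ring
    have e2 : a + (a + 1) = 2 * a + 1 := by ring
    have e3 : a + 1 + (a + 1) = 2 * a + 2 := by ring
    have e4 : a + 1 + (a + 2) = 2 * a + 3 := by ring
    have e5 : a + 2 + (a + 2) = 2 * a + 4 := by ring
    have e6 : a + (a + 2) = 2 * a + 2 := by ring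
    rw [e1, e2, e3, e4, e5] at q1
    rw [e1, e6, e5] at q2
    linarith
  have hodd : ∀ a, C (2 * a + 1) - C (2 * a + 2) ≤ C (2 * a) - C (2 * a + 1) := by
    intro a
    have q2 := hnn a (a + 1)
    have e1 : a + a = 2 * a := by ring
    have e2 : a + (a + 1) = 2 * a + 1 := by ring
    have e3 : a + 1 + (a + 1) = 2 * a + 2 := by ring
    rw [e1, e2, e3] at q2
    linarith
  have hev0 : ∀ a, C (2 * a) - C (2 * a + 1) ≤ C 0 - C 1 := by
    intro a
    induction a with
    | zero => simp
    | succ a ih =>
      have := hev a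
      have e1 : 2 * (a + 1) = 2 * a + 2 := by ring
      have e2 : 2 * (a + 1) + 1 = 2 * a + 3 := by ring
      rw [e1]
      linarith
  have hd : ∀ i, C i - C (i + 1) ≤ C 0 - C 1 := by
    intro i
    rcases Nat.even_or_odd' i with ⟨a, ha | ha⟩
    · rw [ha]; exact hev0 a
    · rw [ha]
      have := hodd a
      have := hev0 a
      have e : 2 * a + 1 + 1 = 2 * a + 2 := by ring
      rw [e]
      linarith
  have htel : ∀ t : ℕ, C 0 - C t ≤ t * (C 0 - C 1) := by
    intro t
    induction t with
    | zero => simp
    | succ t ih =>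
      have := hd t
      push_cast
      linarith
  have hE : ∀ t, ∑ x, ∑ y, μ x * (P ^ t) x y * (g y - g x) ^ 2 = 2 * (C 0 - C t) := by
    intro t
    have h1 : av μ (op P t (fun y => g y ^ 2)) = av μ (fun y => g y ^ 2) := L.av_op t _
    have h0 : C 0 = av μ (fun y => g y ^ 2) := by
      simp only [hCdef, L.op_zero]
      unfold av
      exact Finset.sum_congr rfl fun x _ => by ring
    have h2 : ∑ x, ∑ y, μ x * (P ^ t) x y * (g y - g x) ^ 2 =
        av μ (op P t (fun y => g y ^ 2)) - 2 * C t + av μ (fun y => g y ^ 2) := by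
      simp only [hCdef]
      unfold av op
      rw [Finset.mul_sum, ← Finset.sum_sub_distrib, ← Finset.sum_add_distrib]
      refine Finset.sum_congr rfl fun x _ => ?_
      have hs := L.pw_sum t x
      have h3 : μ x * g x ^ 2 = μ x * g x ^ 2 * ∑ y, (P ^ t) x y := by rw [hs]; ring
      rw [h3]
      simp only [Finset.mul_sum]
      rw [← Finset.sum_sub_distrib, ← Finset.sum_add_distrib]
      refine Finset.sum_congr rfl fun y _ => ?_
      ring
    rw [h2, h1, h0]
    ring
  have hE1 := hE 1
  rw [pow_one] at hE1
  rw [hE, hE1]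
  have := htel t
  linarith

end Vale.Agent.P125.Poly
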