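import Vale.Agent.P125.J99.Defs99

set_option linter.unusedSectionVars false
set_option linter.unusedVariables false

namespace Vale.Agent.P125.Poly

open scoped BigOperators
open Vale.Agent.P125.Dich

lemma av3_23 {S : Type} [Fintype S] (μ A B C : S → ℝ) (a b c : ℝ) :
    av μ (fun x => a * A x + b * B x + c * C x) = a * av μ A + b * av μ B + c * av μ C := by
  unfold av
  simp only [Finset.mul_sum]
  rw [← Finset.sum_add_distrib, ← Finset.sum_add_distrib]
  exact Finset.sum_congr rfl fun x _ => by ring

theorem stL2_23 : StL2 := by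
  intro S _ _ μ P hc L g t
  set u : ℕ → S → ℝ := fun j => op P j g with hu
  set c : ℕ → ℝ := fun i => av μ (fun x => g x * u i x) with hcdef
  have hcab : ∀ a b, av μ (fun x => u a x * u b x) = c (a + b) := by
    intro a b
    have h1 := L.av_adj a g (u b)
    have h2 : op P a (u b) = u (a + b) := L.op_op a b g
    rw [h2] at h1
    exact h1.symm
  have sqid : ∀ a b, av μ (fun x => (u a x - u b x) ^ 2) = c (a + a) - 2 * c (a + b) + c (b + b) := by
    intro a b
    have e : (fun x => (u a x - u b x) ^ 2)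
        = fun x => 1 * (u a x * u a x) + (-2) * (u a x * u b x) + 1 * (u b x * u b x) := by
      funext x
      ring
    rw [e, av3_23, hcab, hcab, hcab]
    ring
  have sqnn : ∀ a b, 0 ≤ c (a + a) - 2 * c (a + b) + c (b + b) := by
    intro a b
    rw [← sqid]
    exact Finset.sum_nonneg fun x _ => mul_nonneg (L.mu_nonneg x) (sq_nonneg _)
  have hcontr : ∀ j, c ((j + 1) + (j + 1)) - 2 * c ((j + 1) + (j + 2)) + c ((j + 2) + (j + 2))
      ≤ c (j + j) - 2 * c (j + (j + 1)) + c ((j + 1) + (j + 1)) := by
    intro j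
    rw [← sqid, ← sqid]
    have e : ∀ x, u (j + 1) x - u (j + 2) x = op P 1 (fun y => u j y - u (j + 1) y) x := by
      intro x
      rw [L.op_sub]
      have h1 : op P 1 (u j) = u (1 + j) := L.op_op 1 j g
      have h2 : op P 1 (u (j + 1)) = u (1 + (j + 1)) := L.op_op 1 (j + 1) g
      have h1' : op P 1 (fun y => u j y) x = u (1 + j) x := congrFun h1 x
      have h2' : op P 1 (fun y => u (j + 1) y) x = u (1 + (j + 1)) x := congrFun h2 x
      rw [h1', h2']
      have a1 : 1 + j = j + 1 := by ring
      have a2 : 1 + (j + 1) = j + 2 := by ring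
      rw [a1, a2]
    calc av μ (fun x => (u (j + 1) x - u (j + 2) x) ^ 2)
        = av μ (fun x => (op P 1 (fun y => u j y - u (j + 1) y) x) ^ 2) := by
          congr 1
          funext x
          rw [e]
      _ ≤ av μ (op P 1 (fun y => (u j y - u (j + 1) y) ^ 2)) :=
          L.av_mono _ _ (fun x => L.sq_op 1 (fun y => u j y - u (j + 1) y) x)
      _ = _ := L.av_op 1 _
  -- differences
  have dodd : ∀ j, c (2 * j + 1) - c (2 * j + 2) ≤ c (2 * j) - c (2 * j + 1) := by
    intro j
    have h := sqnn j (j + 1)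
    have a1 : j + j = 2 * j := by ring
    have a2 : j + (j + 1) = 2 * j + 1 := by ring
    have a3 : (j + 1) + (j + 1) = 2 * j + 2 := by ring
    rw [a1, a2, a3] at h
    linarith
  have deven : ∀ j, c (2 * j + 2) - c (2 * j + 3) ≤ c (2 * j) - c (2 * j + 1) := by
    intro j
    have h1 := sqnn j (j + 2)
    have h2 := hcontr j
    have a1 : j + j = 2 * j := by ring
    have a2 : j + (j + 1) = 2 * j + 1 := by ring
    have a3 : (j + 1) + (j + 1) = 2 * j + 2 := by ring
    have a4 : j + (j + 2) = 2 * j + 2 := by ring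
    have a5 : (j + 2) + (j + 2) = 2 * j + 4 := by ring
    have a6 : (j + 1) + (j + 2) = 2 * j + 3 := by ring
    rw [a1, a4, a5] at h1
    rw [a1, a2, a3, a5, a6] at h2
    linarith
  have dev0 : ∀ j, c (2 * j) - c (2 * j + 1) ≤ c 0 - c 1 := by
    intro j
    induction j with
    | zero => simp
    | succ j ih =>
      have h := deven j
      have a1 : 2 * (j + 1) = 2 * j + 2 := by ring
      rw [a1]
      linarith
  have dall : ∀ i, c i - c (i + 1) ≤ c 0 - c 1 := by
    intro i
    rcases Nat.even_or_odd' i with ⟨j, rfl | rfl⟩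
    · exact dev0 j
    · have h := dodd j
      have h0 := dev0 j
      linarith
  have hsum : ∀ t : ℕ, c 0 - c t ≤ t * (c 0 - c 1) := by
    intro t
    induction t with
    | zero => simp
    | succ t ih =>
      have h := dall t
      push_cast
      linarith
  have Eid : ∀ t : ℕ, ∑ x, ∑ y, μ x * (P ^ t) x y * (g y - g x) ^ 2 = 2 * (c 0 - c t) := by
    intro t
    have e1 : ∀ x, ∑ y, μ x * (P ^ t) x y * (g y - g x) ^ 2
        = μ x * (1 * op P t (fun y => g y ^ 2) x + (-2) * (g x * u t x) + 1 * (g x * g x)) := by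
      intro x
      have b1 : ∑ y, μ x * (P ^ t) x y * (g y - g x) ^ 2
          = μ x * (∑ y, (P ^ t) x y * g y ^ 2 - 2 * g x * ∑ y, (P ^ t) x y * g y
            + g x ^ 2 * ∑ y, (P ^ t) x y) := by
        rw [Finset.mul_sum (a := 2 * g x), Finset.mul_sum (a := g x ^ 2),
          ← Finset.sum_sub_distrib, ← Finset.sum_add_distrib, Finset.mul_sum]
        exact Finset.sum_congr rfl fun y _ => by ring
      rw [b1, L.pw_sum]
      have b2 : ∑ y, (P ^ t) x y * g y ^ 2 = op P t (fun y => g y ^ 2) x := rfl
      have b3 : ∑ y, (P ^ t) x y * g y = u t x := rfl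
      rw [b2, b3]
      ring
    simp only [e1]
    have e2 := av3_23 μ (op P t (fun y => g y ^ 2)) (fun x => g x * u t x) (fun x => g x * g x)
      1 (-2) 1
    unfold av at e2
    rw [e2]
    have e3 : ∑ x, μ x * op P t (fun y => g y ^ 2) x = ∑ x, μ x * g x ^ 2 :=
      L.av_op t (fun y => g y ^ 2)
    have e4 : c 0 = ∑ x, μ x * (g x * g x) := by
      have : u 0 = g := L.op_zero g
      show av μ (fun x => g x * u 0 x) = _
      rw [this]
      rfl
    have e5 : c t = ∑ x, μ x * (g x * u t x) := rfl
    have e6 : ∑ x, μ x * g x ^ 2 = ∑ x, μ x * (g x * g x) :=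
      Finset.sum_congr rfl fun x _ => by ring
    rw [e3, e6, e4, e5]
    ring
  have E1 := Eid 1
  rw [pow_one] at E1
  rw [Eid t, E1]
  have := hsum t
  linarith

end Vale.Agent.P125.Poly
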