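import Vale.Agent.P125.J99.Defs99

set_option linter.unusedSectionVars false
set_option linter.unusedVariables false

namespace Vale.Agent.P125.Poly

open scoped BigOperators
open Vale.Agent.P125.Dich

theorem stL2_36 : StL2 := by
  intro S _ _ μ P hC hL g t
  set c : ℕ → ℝ := fun i => av μ (fun x => g x * op P i g x) with hc
  have hcab : ∀ a b, c (a + b) = av μ (fun x => op P a g x * op P b g x) := by
    intro a b
    have := hL.av_adj a g (op P b g)
    rw [hL.op_op] at this
    exact this
  have sqform : ∀ a b, av μ (fun x => (op P a g x - op P b g x) ^ 2)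
      = c (a + a) - 2 * c (a + b) + c (b + b) := by
    intro a b
    rw [hcab, hcab, hcab]
    unfold av
    have e : ∀ x, μ x * (op P a g x - op P b g x) ^ 2
        = μ x * (op P a g x * op P a g x) - 2 * (μ x * (op P a g x * op P b g x))
          + μ x * (op P b g x * op P b g x) := by intro x; ring
    simp only [e, Finset.sum_add_distrib, Finset.sum_sub_distrib, ← Finset.mul_sum]
  have avsq_nonneg : ∀ h : S → ℝ, 0 ≤ av μ (fun x => h x ^ 2) := by
    intro h
    unfold av
    exact Finset.sum_nonneg fun x _ => mul_nonneg (hL.mu_nonneg x) (sq_nonneg _)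
  have hform : ∀ s, ∑ x, ∑ y, μ x * (P ^ s) x y * (g y - g x) ^ 2 = 2 * (c 0 - c s) := by
    intro s
    have h0 : c 0 = av μ (fun x => g x ^ 2) := by
      rw [hc]
      simp only
      rw [hL.op_zero]
      unfold av
      refine Finset.sum_congr rfl fun x _ => ?_
      ring
    have h1 : av μ (op P s (fun y => g y ^ 2)) = av μ (fun y => g y ^ 2) := hL.av_op s _
    have e : ∀ x, ∑ y, μ x * (P ^ s) x y * (g y - g x) ^ 2
        = μ x * op P s (fun y => g y ^ 2) x - 2 * (μ x * (g x * op P s g x)) + μ x * g x ^ 2 := by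
      intro x
      have e1 : ∀ y, μ x * (P ^ s) x y * (g y - g x) ^ 2
          = μ x * ((P ^ s) x y * g y ^ 2) - 2 * (μ x * (g x * ((P ^ s) x y * g y)))
            + μ x * g x ^ 2 * (P ^ s) x y := by intro y; ring
      simp only [e1, Finset.sum_add_distrib, Finset.sum_sub_distrib, ← Finset.mul_sum]
      rw [hL.pw_sum, mul_one]
      rfl
    simp only [e, Finset.sum_add_distrib, Finset.sum_sub_distrib, ← Finset.mul_sum]
    have e2 : ∑ x, μ x * op P s (fun y => g y ^ 2) x = c 0 := by
      rw [h0, ← h1]; rfl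
    have e3 : ∑ x, μ x * (g x * op P s g x) = c s := rfl
    have e4 : ∑ x, μ x * g x ^ 2 = c 0 := by rw [h0]; rfl
    rw [e2, e3, e4]
    ring
  set d : ℕ → ℝ := fun i => c i - c (i + 1) with hd
  -- (a)
  have ha : ∀ j, d (2 * j + 1) ≤ d (2 * j) := by
    intro j
    have h1 := avsq_nonneg (fun x => op P j g x - op P (j + 1) g x)
    rw [sqform] at h1
    have i1 : j + j = 2 * j := by ring
    have i2 : j + (j + 1) = 2 * j + 1 := by ring
    have i3 : j + 1 + (j + 1) = 2 * j + 1 + 1 := by ring
    rw [i1, i2, i3] at h1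
    simp only [hd]
    linarith
  -- (b)
  have hb : ∀ j, d (2 * (j + 1)) ≤ d (2 * j) := by
    intro j
    have h1 := avsq_nonneg (fun x => op P j g x - op P (j + 2) g x)
    rw [sqform] at h1
    -- contraction
    have h2 : av μ (fun x => (op P (j + 1) g x - op P (j + 2) g x) ^ 2)
        ≤ av μ (fun x => (op P j g x - op P (j + 1) g x) ^ 2) := by
      have e1 : ∀ x, op P (j + 1) g x - op P (j + 2) g x
          = op P 1 (fun y => op P j g y - op P (j + 1) g y) x := by
        intro x
        rw [hL.op_sub, hL.op_op, hL.op_op]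
        have i1 : 1 + j = j + 1 := by ring
        have i2 : 1 + (j + 1) = j + 2 := by ring
        rw [i1, i2]
      simp only [e1]
      refine le_trans (hL.av_mono _ _ (fun x => hL.sq_op 1 _ x)) (le_of_eq ?_)
      exact hL.av_op 1 _
    rw [sqform, sqform] at h2
    have i1 : j + j = 2 * j := by ring
    have i2 : j + (j + 1) = 2 * j + 1 := by ring
    have i3 : j + 1 + (j + 1) = 2 * j + 2 := by ring
    have i4 : j + (j + 2) = 2 * j + 2 := by ring
    have i5 : j + 2 + (j + 2) = 2 * j + 4 := by ring
    have i6 : j + 1 + (j + 2) = 2 * j + 3 := by ring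
    rw [i1, i4, i5] at h1
    rw [i1, i2, i3, i5, i6] at h2
    simp only [hd]
    have i7 : 2 * (j + 1) = 2 * j + 2 := by ring
    have i8 : 2 * j + 2 + 1 = 2 * j + 3 := by ring
    rw [i7, i8]
    linarith
  have hev : ∀ j, d (2 * j) ≤ d 0 := by
    intro j
    induction j with
    | zero => simp
    | succ j ih => exact le_trans (hb j) ih
  have hall : ∀ i, d i ≤ d 0 := by
    intro i
    rcases Nat.even_or_odd' i with ⟨j, hj | hj⟩
    · rw [hj]; exact hev j
    · rw [hj]; exact le_trans (ha j) (hev j)
  have hsum : c 0 - c t = ∑ i ∈ Finset.range t, d i := by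
    rw [hd]
    exact (Finset.sum_range_sub' c t).symm
  have h1 := hform 1
  rw [pow_one] at h1
  rw [hform t, h1, hsum]
  have h2 : ∑ i ∈ Finset.range t, d i ≤ ∑ i ∈ Finset.range t, d 0 :=
    Finset.sum_le_sum fun i _ => hall i
  rw [Finset.sum_const, Finset.card_range, nsmul_eq_mul] at h2
  have h3 : d 0 = c 0 - c 1 := rfl
  rw [h3] at h2
  linarith

end Vale.Agent.P125.Poly
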