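import Vale.Agent.P125.J99.Defs99

set_option linter.unusedSectionVars false
set_option linter.unusedVariables false

/-!
# P125 J99, L2 (helper85): Markov type 2 of the real line with constant 1.
-/

namespace Vale.Agent.P125.Poly

open scoped BigOperators
open Vale.Agent.P125.Dich

theorem stL2_85 : StL2 := by
  intro S _ _ μ P hc hL g t
  set c : ℕ → ℝ := fun i => av μ (fun x => g x * op P i g x) with hcdef
  have hA : ∀ a b, c (a + b) = av μ (fun x => op P a g x * op P b g x) := by
    intro a b
    have h1 := hL.av_adj a g (op P b g)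
    rw [hL.op_op] at h1
    exact h1
  have hG : ∀ a b, av μ (fun x => (op P a g x - op P b g x) ^ 2)
      = c (a + a) - 2 * c (a + b) + c (b + b) := by
    intro a b
    rw [hA a a, hA a b, hA b b]
    unfold av
    rw [Finset.mul_sum, ← Finset.sum_sub_distrib, ← Finset.sum_add_distrib]
    apply Finset.sum_congr rfl; intro x _; ring
  have hN : ∀ u : S → ℝ, 0 ≤ av μ (fun x => u x ^ 2) := fun u =>
    Finset.sum_nonneg (fun x _ => mul_nonneg (hL.mu_nonneg x) (sq_nonneg _))
  have hcontr : ∀ u : S → ℝ, av μ (fun x => (op P 1 u x) ^ 2) ≤ av μ (fun x => u x ^ 2) := by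
    intro u
    calc av μ (fun x => (op P 1 u x) ^ 2) ≤ av μ (op P 1 (fun y => u y ^ 2)) :=
          hL.av_mono _ _ (fun x => hL.sq_op 1 u x)
      _ = _ := hL.av_op 1 _
  have hn : ∀ j, 0 ≤ c (2 * j) - 2 * c (2 * j + 1) + c (2 * j + 2) := by
    intro j
    have h := hG j (j + 1)
    rw [show j + j = 2 * j by ring, show j + (j + 1) = 2 * j + 1 by ring,
      show (j + 1) + (j + 1) = 2 * j + 2 by ring] at h
    rw [← h]; exact hN _
  have h3 : ∀ j, 0 ≤ c (2 * j) - 2 * c (2 * j + 2) + c (2 * j + 4) := by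
    intro j
    have h := hG j (j + 2)
    rw [show j + j = 2 * j by ring, show j + (j + 2) = 2 * j + 2 by ring,
      show (j + 2) + (j + 2) = 2 * j + 4 by ring] at h
    rw [← h]; exact hN _
  have h4 : ∀ j, c (2 * j + 2) - 2 * c (2 * j + 3) + c (2 * j + 4) ≤
      c (2 * j) - 2 * c (2 * j + 1) + c (2 * j + 2) := by
    intro j
    have ha := hG j (j + 1)
    rw [show j + j = 2 * j by ring, show j + (j + 1) = 2 * j + 1 by ring,
      show (j + 1) + (j + 1) = 2 * j + 2 by ring] at ha
    have hb := hG (j + 1) (j + 2)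
    rw [show (j + 1) + (j + 1) = 2 * j + 2 by ring, show (j + 1) + (j + 2) = 2 * j + 3 by ring,
      show (j + 2) + (j + 2) = 2 * j + 4 by ring] at hb
    rw [← ha, ← hb]
    have h := hcontr (fun x => op P j g x - op P (j + 1) g x)
    have e : ∀ x, op P 1 (fun x => op P j g x - op P (j + 1) g x) x
        = op P (j + 1) g x - op P (j + 2) g x := by
      intro x
      rw [hL.op_sub, hL.op_op, hL.op_op, show 1 + j = j + 1 by ring,
        show 1 + (j + 1) = j + 2 by ring]
    simp_rw [e] at h
    exact h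
  have hev : ∀ j, c (2 * j) - c (2 * j + 1) ≤ c 0 - c 1 := by
    intro j
    induction j with
    | zero => simp
    | succ j ih =>
      have a := h3 j
      have b := h4 j
      rw [show 2 * (j + 1) + 1 = 2 * j + 3 by ring, show 2 * (j + 1) = 2 * j + 2 by ring]
      linarith
  have hd : ∀ i, c i - c (i + 1) ≤ c 0 - c 1 := by
    intro i
    rcases Nat.even_or_odd' i with ⟨j, rfl | rfl⟩
    · exact hev j
    · have a := hn j
      have b := hev j
      rw [show 2 * j + 1 + 1 = 2 * j + 2 by ring]
      linarith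
  have hsum : ∀ t : ℕ, c 0 - c t ≤ t * (c 0 - c 1) := by
    intro t
    induction t with
    | zero => simp
    | succ t ih =>
      push_cast
      have := hd t
      linarith
  have e0 : c 0 = av μ (fun x => g x ^ 2) := by
    simp only [hcdef, hL.op_zero]
    unfold av
    apply Finset.sum_congr rfl; intro x _; ring
  have hid : ∀ t, ∑ x, ∑ y, μ x * (P ^ t) x y * (g y - g x) ^ 2 = 2 * (c 0 - c t) := by
    intro t
    have e1 : av μ (op P t (fun y => g y ^ 2)) = c 0 := by rw [hL.av_op, e0]
    have hx : ∀ x, ∑ y, μ x * (P ^ t) x y * (g y - g x) ^ 2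
        = μ x * op P t (fun y => g y ^ 2) x - 2 * (μ x * (g x * op P t g x)) + μ x * g x ^ 2 := by
      intro x
      unfold op
      have hs := hL.pw_sum t x
      have S1 : ∑ y, μ x * ((P ^ t) x y * g y ^ 2) = μ x * ∑ y, (P ^ t) x y * g y ^ 2 :=
        (Finset.mul_sum _ _ _).symm
      have S2 : ∑ y, 2 * (μ x * (g x * ((P ^ t) x y * g y)))
          = 2 * (μ x * (g x * ∑ y, (P ^ t) x y * g y)) := by
        simp only [Finset.mul_sum]
      have S3 : ∑ y, μ x * g x ^ 2 * (P ^ t) x y = μ x * g x ^ 2 := by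
        rw [← Finset.mul_sum, hs, mul_one]
      calc ∑ y, μ x * (P ^ t) x y * (g y - g x) ^ 2
          = ∑ y, (μ x * ((P ^ t) x y * g y ^ 2) - 2 * (μ x * (g x * ((P ^ t) x y * g y)))
              + μ x * g x ^ 2 * (P ^ t) x y) := by
            apply Finset.sum_congr rfl; intro y _; ring
        _ = _ := by
            rw [Finset.sum_add_distrib, Finset.sum_sub_distrib, S1, S2, S3]
    simp_rw [hx]
    rw [Finset.sum_add_distrib, Finset.sum_sub_distrib, ← Finset.mul_sum]
    have a1 : ∑ x, μ x * op P t (fun y => g y ^ 2) x = c 0 := e1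
    have a2 : ∑ x, μ x * (g x * op P t g x) = c t := rfl
    have a3 : ∑ x, μ x * g x ^ 2 = c 0 := e0.symm
    rw [a1, a2, a3]; ring
  have h1 := hid 1
  rw [pow_one] at h1
  rw [hid t, h1]
  have := hsum t
  linarith

end Vale.Agent.P125.Poly
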