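import Vale.Agent.P125.J99.Defs99

set_option linter.unusedSectionVars false
set_option linter.unusedVariables false

namespace Vale.Agent.P125.Poly

open scoped BigOperators
open Vale.Agent.P125.Dich

theorem stL2_95 : StL2 := by
  intro S _ _ μ P hc L g t
  set c : ℕ → ℝ := fun i => av μ (fun x => g x * op P i g x) with hcdef
  -- linearity helpers for `av`
  have av_add : ∀ (a b : S → ℝ), av μ (fun x => a x + b x) = av μ a + av μ b := by
    intro a b
    simp only [av, mul_add, Finset.sum_add_distrib]
  have av_sub : ∀ (a b : S → ℝ), av μ (fun x => a x - b x) = av μ a - av μ b := by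
    intro a b
    simp only [av, mul_sub, Finset.sum_sub_distrib]
  have av_smul : ∀ (r : ℝ) (a : S → ℝ), av μ (fun x => r * a x) = r * av μ a := by
    intro r a
    simp only [av, Finset.mul_sum]
    refine Finset.sum_congr rfl fun x _ => ?_
    ring
  have av_nonneg : ∀ (a : S → ℝ), (∀ x, 0 ≤ a x) → 0 ≤ av μ a := by
    intro a ha
    exact Finset.sum_nonneg fun x _ => mul_nonneg (L.mu_nonneg x) (ha x)
  -- energy formula
  have hE : ∀ i, ∑ x, ∑ y, μ x * (P ^ i) x y * (g y - g x) ^ 2 = 2 * (c 0 - c i) := by
    intro i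
    have h1 : ∀ x, ∑ y, μ x * (P ^ i) x y * (g y - g x) ^ 2 =
        μ x * op P i (fun y => g y ^ 2) x - 2 * (μ x * (g x * op P i g x)) +
          μ x * g x ^ 2 * ∑ y, (P ^ i) x y := by
      intro x
      simp only [op, Finset.mul_sum]
      rw [← Finset.sum_sub_distrib, ← Finset.sum_add_distrib]
      refine Finset.sum_congr rfl fun y _ => ?_
      ring
    simp only [h1, L.pw_sum, mul_one]
    rw [Finset.sum_add_distrib, Finset.sum_sub_distrib, ← Finset.mul_sum]
    have e1 : ∑ x, μ x * op P i (fun y => g y ^ 2) x = av μ (fun y => g y ^ 2) :=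
      L.av_op i (fun y => g y ^ 2)
    have e2 : ∑ x, μ x * (g x * op P i g x) = c i := rfl
    have e3 : ∑ x, μ x * g x ^ 2 = av μ (fun y => g y ^ 2) := rfl
    have e4 : c 0 = av μ (fun y => g y ^ 2) := by
      simp only [hcdef, L.op_zero]
      refine congrArg (av μ) ?_
      funext x
      ring
    rw [e1, e2, e3, e4]
    ring
  -- c (a + b)
  have hcab : ∀ a b, c (a + b) = av μ (fun x => op P a g x * op P b g x) := by
    intro a b
    have := L.av_adj a g (op P b g)
    rw [L.op_op a b g] at this
    exact this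
  -- the two monotonicity facts
  have hA : ∀ j, c (2 * j + 1) - c (2 * j + 2) ≤ c (2 * j) - c (2 * j + 1) := by
    intro j
    have e0 : c (2 * j) = av μ (fun x => op P j g x * op P j g x) := by
      rw [← hcab j j]; congr 1; ring
    have e1 : c (2 * j + 1) = av μ (fun x => op P j g x * op P (j + 1) g x) := by
      rw [← hcab j (j + 1)]; congr 1; ring
    have e2 : c (2 * j + 2) = av μ (fun x => op P (j + 1) g x * op P (j + 1) g x) := by
      rw [← hcab (j + 1) (j + 1)]; congr 1; ring
    have hpos : 0 ≤ av μ (fun x => (op P j g x - op P (j + 1) g x) ^ 2) :=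
      av_nonneg _ fun x => sq_nonneg _
    have hexp : av μ (fun x => (op P j g x - op P (j + 1) g x) ^ 2) =
        c (2 * j) - 2 * c (2 * j + 1) + c (2 * j + 2) := by
      rw [e0, e1, e2, ← av_smul, ← av_sub, ← av_add]
      refine congrArg (av μ) ?_
      funext x
      ring
    linarith
  have hB : ∀ j, c (2 * j + 2) - c (2 * j + 3) ≤ c (2 * j) - c (2 * j + 1) := by
    intro j
    have e0 : c (2 * j) = av μ (fun x => op P j g x * op P j g x) := by
      rw [← hcab j j]; congr 1; ring
    have e1 : c (2 * j + 1) = av μ (fun x => op P j g x * op P (j + 1) g x) := by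
      rw [← hcab j (j + 1)]; congr 1; ring
    have e2 : c (2 * j + 2) = av μ (fun x => op P j g x * op P (j + 2) g x) := by
      rw [← hcab j (j + 2)]; congr 1; ring
    have e3 : c (2 * j + 3) = av μ (fun x => op P (j + 1) g x * op P (j + 2) g x) := by
      rw [← hcab (j + 1) (j + 2)]; congr 1; ring
    set h : S → ℝ := fun x => op P j g x - op P (j + 1) g x with hh
    have hk : ∀ x, op P 1 h x = op P (j + 1) g x - op P (j + 2) g x := by
      intro x
      rw [hh, L.op_sub 1 (op P j g) (op P (j + 1) g) x, L.op_op, L.op_op]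
      have a1 : 1 + j = j + 1 := by ring
      have a2 : 1 + (j + 1) = j + 2 := by ring
      rw [a1, a2]
    have hle : av μ (fun x => op P 1 h x ^ 2) ≤ av μ (fun x => h x ^ 2) := by
      calc av μ (fun x => op P 1 h x ^ 2) ≤ av μ (op P 1 (fun y => h y ^ 2)) :=
            L.av_mono _ _ (fun x => L.sq_op 1 h x)
        _ = av μ (fun x => h x ^ 2) := L.av_op 1 _
    have hexp : c (2 * j) - c (2 * j + 1) - c (2 * j + 2) + c (2 * j + 3) =
        av μ (fun x => h x ^ 2 + h x * op P 1 h x) := by
      rw [e0, e1, e2, e3, ← av_sub, ← av_sub, ← av_add]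
      refine congrArg (av μ) ?_
      funext x
      rw [hk x, hh]
      ring
    have hlow : av μ (fun x => (1 / 2) * (h x ^ 2 - op P 1 h x ^ 2)) ≤
        av μ (fun x => h x ^ 2 + h x * op P 1 h x) := by
      refine L.av_mono _ _ fun x => ?_
      nlinarith [sq_nonneg (h x + op P 1 h x)]
    rw [av_smul, av_sub] at hlow
    linarith
  -- d i ≤ d 0
  have hev : ∀ j, c (2 * j) - c (2 * j + 1) ≤ c 0 - c 1 := by
    intro j
    induction j with
    | zero => simp
    | succ j ih =>
      have := hB j
      have a1 : 2 * (j + 1) = 2 * j + 2 := by ring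
      have a2 : 2 * j + 2 + 1 = 2 * j + 3 := by ring
      rw [a1, a2]
      linarith
  have hd : ∀ i, c i - c (i + 1) ≤ c 0 - c 1 := by
    intro i
    rcases Nat.even_or_odd' i with ⟨j, rfl | rfl⟩
    · exact hev j
    · have := hA j
      have := hev j
      have a1 : 2 * j + 1 + 1 = 2 * j + 2 := by ring
      rw [a1]
      linarith
  have hsum : ∀ s : ℕ, c 0 - c s ≤ s * (c 0 - c 1) := by
    intro s
    induction s with
    | zero => simp
    | succ s ih =>
      have := hd s
      push_cast
      linarith
  have h1 := hE t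
  have h2 := hE 1
  rw [pow_one] at h2
  rw [h1, h2]
  have := hsum t
  linarith

end Vale.Agent.P125.Poly
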