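import Vale.Agent.P125.J99.Defs99

set_option linter.unusedSectionVars false
set_option linter.unusedVariables false

namespace Vale.Agent.P125.Poly

open scoped BigOperators

theorem v2R_36 (vv : ℕ → ℝ) (e : ℝ) (x b : ℕ) (hxb : x ≤ b) :
    ((∑ k ∈ Finset.range b, vv k) - e) ^ 2 ≤ ((∑ k ∈ Finset.range x, vv k) - e) ^ 2
      + ∑ k ∈ Finset.Ico x b, 2 * |vv k| * |(∑ i ∈ Finset.range (k + 1), vv i) - e| := by
  induction b, hxb using Nat.le_induction with
  | base => simp
  | succ b hb ih =>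
    rw [Finset.sum_Ico_succ_top hb]
    have h1 : ∑ k ∈ Finset.range (b + 1), vv k = ∑ k ∈ Finset.range b, vv k + vv b :=
      Finset.sum_range_succ _ _
    set A := (∑ k ∈ Finset.range (b + 1), vv k) - e with hA
    set B := (∑ k ∈ Finset.range b, vv k) - e with hB
    have h2 : A - B = vv b := by rw [hA, hB, h1]; ring
    have h3 : A ^ 2 - B ^ 2 ≤ 2 * |vv b| * |A| := by
      have h4 : A * vv b ≤ |vv b| * |A| := by
        rw [← abs_mul, mul_comm]; exact le_abs_self _
      have h5 : B = A - vv b := by linarith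
      rw [h5]
      nlinarith [sq_nonneg (vv b)]
    linarith

theorem v2L_36 (vv : ℕ → ℝ) (e : ℝ) (a x : ℕ) (hax : a ≤ x) :
    ((∑ k ∈ Finset.range a, vv k) - e) ^ 2 ≤ ((∑ k ∈ Finset.range x, vv k) - e) ^ 2
      + ∑ k ∈ Finset.Ico a x,
        (2 * |vv k| * |(∑ i ∈ Finset.range (k + 1), vv i) - e| + vv k ^ 2) := by
  induction x, hax using Nat.le_induction with
  | base => simp
  | succ x hx ih =>
    rw [Finset.sum_Ico_succ_top hx]
    have h1 : ∑ k ∈ Finset.range (x + 1), vv k = ∑ k ∈ Finset.range x, vv k + vv x :=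
      Finset.sum_range_succ _ _
    set A := (∑ k ∈ Finset.range (x + 1), vv k) - e with hA
    set B := (∑ k ∈ Finset.range x, vv k) - e with hB
    have h2 : B = A - vv x := by rw [hA, hB, h1]; ring
    have h3 : B ^ 2 ≤ A ^ 2 + 2 * |vv x| * |A| + vv x ^ 2 := by
      have h4 : -(A * vv x) ≤ |vv x| * |A| := by
        rw [← abs_mul, mul_comm]; exact neg_le_abs _
      rw [h2]
      nlinarith
    linarith

theorem v2blk_36 (vv : ℕ → ℝ) (a b : ℕ) (hab : a ≤ b) :
    ((∑ k ∈ Finset.range b, vv k) - (∑ k ∈ Finset.range a, vv k)) ^ 2 ≤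
      ∑ k ∈ Finset.Ico a b, (8 * |vv k| * |∑ i ∈ Finset.range (k + 1), vv i| + 2 * vv k ^ 2) := by
  obtain ⟨x, hx, hmin⟩ := Finset.exists_min_image (Finset.Icc a b)
    (fun j => |∑ k ∈ Finset.range j, vv k|) ⟨a, Finset.mem_Icc.mpr ⟨le_rfl, hab⟩⟩
  obtain ⟨hax, hxb⟩ := Finset.mem_Icc.mp hx
  set e := ∑ k ∈ Finset.range x, vv k with he
  have hR := v2R_36 vv e x b hxb
  have hL := v2L_36 vv e a x hax
  rw [← he, sub_self] at hR hL
  have hbd : ∀ k ∈ Finset.Ico a b, |(∑ i ∈ Finset.range (k + 1), vv i) - e|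
      ≤ 2 * |∑ i ∈ Finset.range (k + 1), vv i| := by
    intro k hk
    obtain ⟨h1, h2⟩ := Finset.mem_Ico.mp hk
    have h3 := hmin (k + 1) (Finset.mem_Icc.mpr ⟨by omega, by omega⟩)
    have h4 : |(∑ i ∈ Finset.range (k + 1), vv i) - e|
        ≤ |∑ i ∈ Finset.range (k + 1), vv i| + |e| := abs_sub _ _
    linarith
  have hR' : ∑ k ∈ Finset.Ico x b, 2 * |vv k| * |(∑ i ∈ Finset.range (k + 1), vv i) - e| ≤
      ∑ k ∈ Finset.Ico x b, (4 * |vv k| * |∑ i ∈ Finset.range (k + 1), vv i| + vv k ^ 2) := by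
    refine Finset.sum_le_sum fun k hk => ?_
    obtain ⟨h1, h2⟩ := Finset.mem_Ico.mp hk
    have h3 := hbd k (Finset.mem_Ico.mpr ⟨by omega, h2⟩)
    have h4 := mul_le_mul_of_nonneg_left h3 (abs_nonneg (vv k))
    nlinarith [sq_nonneg (vv k)]
  have hL' : ∑ k ∈ Finset.Ico a x,
      (2 * |vv k| * |(∑ i ∈ Finset.range (k + 1), vv i) - e| + vv k ^ 2) ≤
      ∑ k ∈ Finset.Ico a x, (4 * |vv k| * |∑ i ∈ Finset.range (k + 1), vv i| + vv k ^ 2) := by
    refine Finset.sum_le_sum fun k hk => ?_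
    obtain ⟨h1, h2⟩ := Finset.mem_Ico.mp hk
    have h3 := hbd k (Finset.mem_Ico.mpr ⟨h1, by omega⟩)
    have h4 := mul_le_mul_of_nonneg_left h3 (abs_nonneg (vv k))
    nlinarith
  have hsplit := Finset.sum_Ico_consecutive
    (fun k => 4 * |vv k| * |∑ i ∈ Finset.range (k + 1), vv i| + vv k ^ 2) hax hxb
  have hdouble : ∑ k ∈ Finset.Ico a b,
      (8 * |vv k| * |∑ i ∈ Finset.range (k + 1), vv i| + 2 * vv k ^ 2)
      = 2 * ∑ k ∈ Finset.Ico a b, (4 * |vv k| * |∑ i ∈ Finset.range (k + 1), vv i| + vv k ^ 2) := by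
    rw [Finset.mul_sum]
    refine Finset.sum_congr rfl fun k _ => ?_
    ring
  rw [hdouble, ← hsplit]
  set X := (∑ k ∈ Finset.range b, vv k) - e
  set Y := (∑ k ∈ Finset.range a, vv k) - e
  have hXY : (∑ k ∈ Finset.range b, vv k) - (∑ k ∈ Finset.range a, vv k) = X - Y := by
    simp only [X, Y]; ring
  rw [hXY]
  nlinarith [sq_nonneg (X + Y)]

theorem stV2_36 : StV2 := by
  intro n v m c hc
  set vv : ℕ → ℝ := fun k => if h : k < n then v ⟨k, h⟩ else 0 with hvv
  have hvvF : ∀ l : Fin n, vv l.val = v l := by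
    intro l
    simp only [hvv, l.isLt, dif_pos]
  have hvv0 : ∀ k, n ≤ k → vv k = 0 := by
    intro k hk
    simp only [hvv, not_lt.mpr hk, dif_neg, not_false_eq_true]
  set T : ℕ → ℝ := fun k => 8 * |vv k| * |∑ i ∈ Finset.range (k + 1), vv i| + 2 * vv k ^ 2 with hT
  have hT0 : ∀ k, 0 ≤ T k := by intro k; simp only [hT]; positivity
  have hTz : ∀ k, n ≤ k → T k = 0 := by
    intro k hk
    simp only [hT, hvv0 k hk]
    simp
  -- blocks
  have hblock : ∀ a b, a ≤ b →
      (∑ l : Fin n, if a ≤ l.val ∧ l.val < b then v l else 0)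
        = (∑ k ∈ Finset.range b, vv k) - (∑ k ∈ Finset.range a, vv k) := by
    intro a b hab
    rw [← Finset.sum_Ico_eq_sub _ hab]
    have e1 : (∑ l : Fin n, if a ≤ l.val ∧ l.val < b then v l else 0)
        = ∑ l : Fin n, (fun k => if a ≤ k ∧ k < b then vv k else 0) l.val := by
      refine Finset.sum_congr rfl fun l _ => ?_
      simp only [hvvF]
    rw [e1, Fin.sum_univ_eq_sum_range (fun k => if a ≤ k ∧ k < b then vv k else 0) n,
      ← Finset.sum_filter]
    have e2 : ∑ k ∈ Finset.Ico a b, vv k = ∑ k ∈ (Finset.Ico a b).filter (fun k => k < n), vv k := by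
      rw [Finset.sum_filter_of_ne]
      intro k _ hk
      by_contra hcon
      exact hk (hvv0 k (not_lt.mp hcon))
    rw [e2]
    refine Finset.sum_congr ?_ (fun _ _ => rfl)
    apply Finset.ext
    intro k
    simp only [Finset.mem_filter, Finset.mem_range, Finset.mem_Ico]
    tauto
  have h1 : ∑ q ∈ Finset.range m,
      (∑ l : Fin n, if c q ≤ l.val ∧ l.val < c (q + 1) then v l else 0) ^ 2
      ≤ ∑ q ∈ Finset.range m, ∑ k ∈ Finset.Ico (c q) (c (q + 1)), T k := by
    refine Finset.sum_le_sum fun q _ => ?_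
    have hq : c q ≤ c (q + 1) := hc (Nat.le_succ q)
    rw [hblock _ _ hq]
    exact v2blk_36 vv _ _ hq
  have h2 : ∀ m', ∑ q ∈ Finset.range m', ∑ k ∈ Finset.Ico (c q) (c (q + 1)), T k
      = ∑ k ∈ Finset.Ico (c 0) (c m'), T k := by
    intro m'
    induction m' with
    | zero => simp
    | succ m' ih =>
      rw [Finset.sum_range_succ, ih]
      exact Finset.sum_Ico_consecutive T (hc (Nat.zero_le m')) (hc (Nat.le_succ m'))
  have h3 : ∑ k ∈ Finset.Ico (c 0) (c m), T k ≤ ∑ k ∈ Finset.range n, T k := by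
    have e2 : ∑ k ∈ Finset.Ico (c 0) (c m), T k
        = ∑ k ∈ (Finset.Ico (c 0) (c m)).filter (fun k => k < n), T k := by
      rw [Finset.sum_filter_of_ne]
      intro k _ hk
      by_contra hcon
      exact hk (hTz k (not_lt.mp hcon))
    rw [e2]
    refine Finset.sum_le_sum_of_subset_of_nonneg ?_ (fun k _ _ => hT0 k)
    intro k hk
    exact Finset.mem_range.mpr (Finset.mem_filter.mp hk).2
  have h4 : ∑ k ∈ Finset.range n, T k
      = 8 * ∑ k : Fin n, |v k| * |∑ i, if i ≤ k then v i else 0| + 2 * ∑ k : Fin n, v k ^ 2 := by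
    rw [← Fin.sum_univ_eq_sum_range T n, Finset.mul_sum, Finset.mul_sum, ← Finset.sum_add_distrib]
    refine Finset.sum_congr rfl fun k _ => ?_
    have e3 : ∑ i ∈ Finset.range (k.val + 1), vv i = ∑ i : Fin n, if i ≤ k then v i else 0 := by
      have e4 : (∑ i : Fin n, if i ≤ k then v i else 0)
          = ∑ i : Fin n, (fun j => if j ≤ k.val then vv j else 0) i.val := by
        refine Finset.sum_congr rfl fun i _ => ?_
        simp only [hvvF, Fin.le_def]
      rw [e4, Fin.sum_univ_eq_sum_range (fun j => if j ≤ k.val then vv j else 0) n,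
        ← Finset.sum_filter]
      refine Finset.sum_congr ?_ (fun _ _ => rfl)
      apply Finset.ext
      intro j
      simp only [Finset.mem_filter, Finset.mem_range]
      have := k.isLt
      omega
    simp only [hT, hvvF, e3]
    ring
  calc _ ≤ _ := h1
    _ = _ := h2 m
    _ ≤ _ := h3
    _ = _ := h4

end Vale.Agent.P125.Poly
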