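import Vale.Agent.P125.J99.Defs99

set_option linter.unusedSectionVars false
set_option linter.unusedVariables false

namespace Vale.Agent.P125.Poly

open scoped BigOperators
open Vale.Agent.P125.Dich

/-- right telescoping -/
theorem v2R_99 (g : ℕ → ℝ) (e : ℝ) (x : ℕ) : ∀ b, x ≤ b →
    (g b - e) ^ 2 ≤ (g x - e) ^ 2
      + ∑ k ∈ Finset.Ico x b, 2 * (|g (k + 1) - g k| * |g (k + 1) - e|) := by
  intro b hb
  induction b, hb using Nat.le_induction with
  | base => simp
  | succ b hb ih =>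
    rw [Finset.sum_Ico_succ_top hb]
    have h1 : (g (b + 1) - e) ^ 2 - (g b - e) ^ 2
        ≤ 2 * (|g (b + 1) - g b| * |g (b + 1) - e|) := by
      have h2 : (g (b + 1) - g b) * (g (b + 1) - e) ≤ |g (b + 1) - g b| * |g (b + 1) - e| := by
        rw [← abs_mul]; exact le_abs_self _
      nlinarith [sq_nonneg (g (b + 1) - g b)]
    linarith

/-- left telescoping -/
theorem v2L_99 (g : ℕ → ℝ) (e : ℝ) (a : ℕ) : ∀ x, a ≤ x →
    (g a - e) ^ 2 ≤ (g x - e) ^ 2
      + ∑ k ∈ Finset.Ico a x, (2 * (|g (k + 1) - g k| * |g (k + 1) - e|)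
          + (g (k + 1) - g k) ^ 2) := by
  intro x hx
  induction x, hx using Nat.le_induction with
  | base => simp
  | succ x hx ih =>
    rw [Finset.sum_Ico_succ_top hx]
    have h1 : (g x - e) ^ 2 - (g (x + 1) - e) ^ 2
        ≤ 2 * (|g (x + 1) - g x| * |g (x + 1) - e|) + (g (x + 1) - g x) ^ 2 := by
      have h2 : -((g (x + 1) - g x) * (g (x + 1) - e)) ≤ |g (x + 1) - g x| * |g (x + 1) - e| := by
        rw [← abs_mul]; exact neg_le_abs _
      nlinarith
    linarith

/-- one interval -/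
theorem v2I_99 (g : ℕ → ℝ) (a b : ℕ) (hab : a ≤ b) :
    (g b - g a) ^ 2 ≤ ∑ k ∈ Finset.Ico a b,
      (8 * (|g (k + 1) - g k| * |g (k + 1)|) + 2 * (g (k + 1) - g k) ^ 2) := by
  obtain ⟨x, hx, hmin⟩ := Finset.exists_min_image (Finset.Icc a b) (fun j => |g j|)
    ⟨a, Finset.mem_Icc.mpr ⟨le_refl a, hab⟩⟩
  rw [Finset.mem_Icc] at hx
  have hR := v2R_99 g (g x) x b hx.2
  have hL := v2L_99 g (g x) a x hx.1
  simp only [sub_self, ne_eq, OfNat.ofNat_ne_zero, not_false_eq_true, zero_pow, zero_add] at hR hL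
  have hb2 : ∀ k, a ≤ k → k < b → |g (k + 1) - g x| ≤ 2 * |g (k + 1)| := by
    intro k h1 h2
    have h3 := hmin (k + 1) (Finset.mem_Icc.mpr ⟨by omega, by omega⟩)
    have h4 : |g (k + 1) - g x| ≤ |g (k + 1)| + |g x| := abs_sub _ _
    linarith
  have hR2 : (g b - g x) ^ 2 ≤ ∑ k ∈ Finset.Ico x b, (4 * (|g (k + 1) - g k| * |g (k + 1)|)
      + (g (k + 1) - g k) ^ 2) := by
    refine hR.trans (Finset.sum_le_sum fun k hk => ?_)
    rw [Finset.mem_Ico] at hk
    have h5 := hb2 k (by omega) hk.2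
    have h6 := mul_le_mul_of_nonneg_left h5 (abs_nonneg (g (k + 1) - g k))
    nlinarith [sq_nonneg (g (k + 1) - g k)]
  have hL2 : (g a - g x) ^ 2 ≤ ∑ k ∈ Finset.Ico a x, (4 * (|g (k + 1) - g k| * |g (k + 1)|)
      + (g (k + 1) - g k) ^ 2) := by
    refine hL.trans (Finset.sum_le_sum fun k hk => ?_)
    rw [Finset.mem_Ico] at hk
    have h5 := hb2 k hk.1 (by omega)
    have h6 := mul_le_mul_of_nonneg_left h5 (abs_nonneg (g (k + 1) - g k))
    nlinarith
  have hsplit := Finset.sum_Ico_consecutive (fun k => (4 * (|g (k + 1) - g k| * |g (k + 1)|)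
      + (g (k + 1) - g k) ^ 2)) hx.1 hx.2
  have e8 : ∑ k ∈ Finset.Ico a b,
      (8 * (|g (k + 1) - g k| * |g (k + 1)|) + 2 * (g (k + 1) - g k) ^ 2)
      = 2 * ∑ k ∈ Finset.Ico a b, (4 * (|g (k + 1) - g k| * |g (k + 1)|)
      + (g (k + 1) - g k) ^ 2) := by
    rw [Finset.mul_sum]
    refine Finset.sum_congr rfl fun k _ => ?_
    ring
  rw [e8, ← hsplit]
  nlinarith [sq_nonneg ((g b - g x) + (g a - g x))]

/-- all intervals -/
theorem v2S_99 (g : ℕ → ℝ) (c : ℕ → ℕ) (hc : Monotone c) (m : ℕ) :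
    ∑ q ∈ Finset.range m, (g (c (q + 1)) - g (c q)) ^ 2 ≤ ∑ k ∈ Finset.Ico (c 0) (c m),
      (8 * (|g (k + 1) - g k| * |g (k + 1)|) + 2 * (g (k + 1) - g k) ^ 2) := by
  induction m with
  | zero => simp
  | succ m ih =>
    rw [Finset.sum_range_succ]
    have h1 := v2I_99 g (c m) (c (m + 1)) (hc (Nat.le_succ m))
    have h2 := Finset.sum_Ico_consecutive (fun k =>
      (8 * (|g (k + 1) - g k| * |g (k + 1)|) + 2 * (g (k + 1) - g k) ^ 2))
      (hc (Nat.zero_le m)) (hc (Nat.le_succ m))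
    rw [← h2]
    linarith

theorem stV2_99 : StV2 := by
  intro n v m c hc
  -- the Nat indexed prefix sums
  obtain ⟨g, hg⟩ : ∃ g : ℕ → ℝ, g = fun j => ∑ l : Fin n, if l.val < j then v l else 0 := ⟨_, rfl⟩
  have hblock : ∀ a b : ℕ, a ≤ b →
      (∑ l : Fin n, if a ≤ l.val ∧ l.val < b then v l else 0) = g b - g a := by
    intro a b hab
    rw [hg]
    simp only
    rw [← Finset.sum_sub_distrib]
    refine Finset.sum_congr rfl fun l _ => ?_
    by_cases h1 : l.val < a
    · have h2 : l.val < b := by omega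
      have h3 : ¬ (a ≤ l.val ∧ l.val < b) := by omega
      simp [h1, h2, h3]
    · by_cases h2 : l.val < b
      · have h3 : a ≤ l.val ∧ l.val < b := by omega
        simp [h1, h2, h3]
      · have h3 : ¬ (a ≤ l.val ∧ l.val < b) := by omega
        simp [h1, h2, h3]
  have hd : ∀ k : Fin n, g (k.val + 1) - g k.val = v k := by
    intro k
    rw [← hblock k.val (k.val + 1) (Nat.le_succ _)]
    rw [Finset.sum_eq_single k]
    · simp
    · intro l _ hl
      have : ¬ (k.val ≤ l.val ∧ l.val < k.val + 1) := by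
        intro h
        apply hl
        apply Fin.ext
        omega
      rw [if_neg this]
    · simp
  have hd0 : ∀ k : ℕ, n ≤ k → g (k + 1) - g k = 0 := by
    intro k hk
    rw [← hblock k (k + 1) (Nat.le_succ _)]
    refine Finset.sum_eq_zero fun l _ => ?_
    have : ¬ (k ≤ l.val ∧ l.val < k + 1) := by
      have := l.isLt
      omega
    rw [if_neg this]
  have hG : ∀ k : Fin n, g (k.val + 1) = ∑ i, if i ≤ k then v i else 0 := by
    intro k
    rw [hg]
    simp only
    refine Finset.sum_congr rfl fun i _ => ?_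
    have : (i.val < k.val + 1) ↔ i ≤ k := by
      rw [Fin.le_def]; omega
    simp only [this]
  have e1 : ∑ q ∈ Finset.range m,
      (∑ l : Fin n, if c q ≤ l.val ∧ l.val < c (q + 1) then v l else 0) ^ 2
      = ∑ q ∈ Finset.range m, (g (c (q + 1)) - g (c q)) ^ 2 := by
    refine Finset.sum_congr rfl fun q _ => ?_
    rw [hblock _ _ (hc (Nat.le_succ q))]
  rw [e1]
  refine (v2S_99 g c hc m).trans ?_
  -- enlarge the range, then cut at n
  have hnn : ∀ k, 0 ≤ (8 * (|g (k + 1) - g k| * |g (k + 1)|) + 2 * (g (k + 1) - g k) ^ 2) := by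
    intro k; positivity
  have s1 : ∑ k ∈ Finset.Ico (c 0) (c m),
      (8 * (|g (k + 1) - g k| * |g (k + 1)|) + 2 * (g (k + 1) - g k) ^ 2)
      ≤ ∑ k ∈ Finset.range (max n (c m)),
      (8 * (|g (k + 1) - g k| * |g (k + 1)|) + 2 * (g (k + 1) - g k) ^ 2) := by
    refine Finset.sum_le_sum_of_subset_of_nonneg ?_ (fun k _ _ => hnn k)
    intro k hk
    rw [Finset.mem_Ico] at hk
    rw [Finset.mem_range]
    have := le_max_right n (c m)
    omega
  have s2 : ∑ k ∈ Finset.range (max n (c m)),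
      (8 * (|g (k + 1) - g k| * |g (k + 1)|) + 2 * (g (k + 1) - g k) ^ 2)
      = ∑ k ∈ Finset.range n,
      (8 * (|g (k + 1) - g k| * |g (k + 1)|) + 2 * (g (k + 1) - g k) ^ 2) := by
    symm
    refine Finset.sum_subset ?_ ?_
    · intro k hk
      rw [Finset.mem_range] at hk ⊢
      have := le_max_left n (c m)
      omega
    · intro k _ hk
      rw [Finset.mem_range, not_lt] at hk
      rw [hd0 k hk]
      simp
  have s3 : ∑ k ∈ Finset.range n,
      (8 * (|g (k + 1) - g k| * |g (k + 1)|) + 2 * (g (k + 1) - g k) ^ 2)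
      = ∑ k : Fin n, (8 * (|v k| * |∑ i, if i ≤ k then v i else 0|) + 2 * v k ^ 2) := by
    rw [← Fin.sum_univ_eq_sum_range (fun k =>
      (8 * (|g (k + 1) - g k| * |g (k + 1)|) + 2 * (g (k + 1) - g k) ^ 2)) n]
    refine Finset.sum_congr rfl fun k _ => ?_
    rw [hd k, hG k]
  rw [s2, s3] at s1
  refine s1.trans (le_of_eq ?_)
  rw [Finset.sum_add_distrib, ← Finset.mul_sum, ← Finset.mul_sum]

end Vale.Agent.P125.Poly
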